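import Mathlib

namespace Vale.Agent.Results.P038.ThirdNbhd

open Finset Classical

/-- first out-neighbourhood -/
def N1 {V : Type} (r : V → V → Prop) (v : V) : Set V := {u | r v u}

/-- vertices at directed distance exactly two -/
def N2 {V : Type} (r : V → V → Prop) (v : V) : Set V :=
  {w | w ≠ v ∧ ¬ r v w ∧ ∃ u, r v u ∧ r u w}

/-- vertices at directed distance exactly three -/
def N3 {V : Type} (r : V → V → Prop) (v : V) : Set V :=
  {w | w ≠ v ∧ ¬ r v w ∧ (¬ ∃ u, r v u ∧ r u w) ∧ ∃ u u', r v u ∧ r u u' ∧ r u' w}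

/-- number of arcs inside a set `S` of an oriented graph, counted twice, is at most `|S|(|S|-1)` -/
lemma arcs_inside {V : Type} (r : V → V → Prop) (hr : ∀ u v, r u v → ¬ r v u) (S : Finset V) :
    2 * ∑ v ∈ S, (S.filter (fun w => r v w)).card ≤ S.card * (S.card - 1) := by
  have h1 : ∑ v ∈ S, (S.filter (fun w => r v w)).card
      = ∑ v ∈ S, (S.filter (fun w => r w v)).card := by
    have := Finset.sum_card_bipartiteAbove_eq_sum_card_bipartiteBelow (s := S) (t := S) r
    simpa [Finset.bipartiteAbove, Finset.bipartiteBelow] using this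
  have h2 : ∀ v ∈ S, (S.filter (fun w => r v w)).card + (S.filter (fun w => r w v)).card
      ≤ S.card - 1 := by
    intro v hv
    have hdisj : Disjoint (S.filter (fun w => r v w)) (S.filter (fun w => r w v)) := by
      rw [Finset.disjoint_left]
      intro w hw hw'
      simp only [Finset.mem_filter] at hw hw'
      exact hr _ _ hw.2 hw'.2
    rw [← Finset.card_union_of_disjoint hdisj, ← Finset.card_erase_of_mem hv]
    apply Finset.card_le_card
    intro w hw
    simp only [Finset.mem_union, Finset.mem_filter] at hw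
    rw [Finset.mem_erase]
    rcases hw with hw | hw
    · exact ⟨fun h => hr _ _ hw.2 (h ▸ hw.2), hw.1⟩
    · exact ⟨fun h => hr _ _ hw.2 (h ▸ hw.2), hw.1⟩
  calc 2 * ∑ v ∈ S, (S.filter (fun w => r v w)).card
      = ∑ v ∈ S, (S.filter (fun w => r v w)).card + ∑ v ∈ S, (S.filter (fun w => r w v)).card := by
        rw [← h1]; ring
    _ = ∑ v ∈ S, ((S.filter (fun w => r v w)).card + (S.filter (fun w => r w v)).card) := by
        rw [Finset.sum_add_distrib]
    _ ≤ ∑ _v ∈ S, (S.card - 1) := Finset.sum_le_sum h2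
    _ = S.card * (S.card - 1) := by simp

lemma key {V : Type} [Fintype V] (r : V → V → Prop) (hr : ∀ u v, r u v → ¬ r v u)
    (x : V) (hx : ∀ v, (N1 r x).ncard ≤ (N1 r v).ncard) :
    ((N1 r x).ncard + (N2 r x).ncard) * ((N1 r x).ncard + 1)
      ≤ 2 * (N2 r x).ncard * (1 + (N3 r x).ncard)
        + ((N1 r x).ncard + (N2 r x).ncard) * (N2 r x).ncard := by
  set A : Finset V := (N1 r x).toFinset with hA
  set B : Finset V := (N2 r x).toFinset with hB
  set C : Finset V := (N3 r x).toFinset with hC
  have cA : (N1 r x).ncard = A.card := by rw [Set.ncard_eq_toFinset_card']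
  have cB : (N2 r x).ncard = B.card := by rw [Set.ncard_eq_toFinset_card']
  have cC : (N3 r x).ncard = C.card := by rw [Set.ncard_eq_toFinset_card']
  have cO : ∀ v, (N1 r v).ncard = (univ.filter (fun w => r v w)).card := by
    intro v
    rw [Set.ncard_eq_toFinset_card']
    congr 1
    ext w
    rw [Set.mem_toFinset]
    simp [N1]
  have mA : ∀ w, w ∈ A ↔ r x w := by
    intro w; rw [hA, Set.mem_toFinset]; rfl
  have mB : ∀ w, w ∈ B ↔ (w ≠ x ∧ ¬ r x w ∧ ∃ u, r x u ∧ r u w) := by
    intro w; rw [hB, Set.mem_toFinset]; rfl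
  have mC : ∀ w, w ∈ C ↔ (w ≠ x ∧ ¬ r x w ∧ (¬ ∃ u, r x u ∧ r u w) ∧
      ∃ u u', r x u ∧ r u u' ∧ r u' w) := by
    intro w; rw [hC, Set.mem_toFinset]; rfl
  have hAB : Disjoint A B := by
    rw [Finset.disjoint_left]; intro w hw hw'
    exact ((mB w).1 hw').2.1 ((mA w).1 hw)
  set S : Finset V := A ∪ B with hS
  have cS : S.card = A.card + B.card := Finset.card_union_of_disjoint hAB
  rw [cA, cB, cC]
  -- each vertex of S has out-degree at least |A|
  have hdeg : ∀ v, A.card ≤ (univ.filter (fun w => r v w)).card := by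
    intro v; rw [← cA, ← cO]; exact hx v
  -- split of out-neighbourhoods
  have hsplitA : ∀ v ∈ A, (univ.filter (fun w => r v w)).card
      ≤ (S.filter (fun w => r v w)).card := by
    intro v hv
    apply Finset.card_le_card
    intro w hw
    simp only [Finset.mem_filter, Finset.mem_univ, true_and] at hw
    simp only [Finset.mem_filter]
    refine ⟨?_, hw⟩
    rw [hS, Finset.mem_union]
    by_cases h : r x w
    · exact Or.inl ((mA w).2 h)
    · refine Or.inr ((mB w).2 ⟨?_, h, v, (mA v).1 hv, hw⟩)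
      rintro rfl
      exact hr _ _ hw ((mA v).1 hv)
  have hsplitB : ∀ v ∈ B, (univ.filter (fun w => r v w)).card
      ≤ (S.filter (fun w => r v w)).card + (1 + C.card) := by
    intro v hv
    have hsub : (univ.filter (fun w => r v w)) ⊆ (S.filter (fun w => r v w)) ∪ (insert x C) := by
      intro w hw
      simp only [Finset.mem_filter, Finset.mem_univ, true_and] at hw
      simp only [Finset.mem_union, Finset.mem_filter, Finset.mem_insert]
      by_cases hwx : w = x
      · exact Or.inr (Or.inl hwx)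
      by_cases h : r x w
      · exact Or.inl ⟨by rw [hS, Finset.mem_union]; exact Or.inl ((mA w).2 h), hw⟩
      by_cases h2 : ∃ u, r x u ∧ r u w
      · exact Or.inl ⟨by rw [hS, Finset.mem_union]; exact Or.inr ((mB w).2 ⟨hwx, h, h2⟩), hw⟩
      · obtain ⟨_, _, u, hu1, hu2⟩ := (mB v).1 hv
        exact Or.inr (Or.inr ((mC w).2 ⟨hwx, h, h2, u, v, hu1, hu2, hw⟩))
    calc (univ.filter (fun w => r v w)).card
        ≤ ((S.filter (fun w => r v w)) ∪ (insert x C)).card := Finset.card_le_card hsub
      _ ≤ (S.filter (fun w => r v w)).card + (insert x C).card := Finset.card_union_le _ _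
      _ ≤ (S.filter (fun w => r v w)).card + (1 + C.card) := by
          have := Finset.card_insert_le x C
          omega
  have hsum : A.card * S.card ≤ ∑ v ∈ S, (S.filter (fun w => r v w)).card + B.card * (1 + C.card) := by
    calc A.card * S.card = ∑ _v ∈ S, A.card := by simp [mul_comm]
      _ ≤ ∑ v ∈ S, (univ.filter (fun w => r v w)).card := Finset.sum_le_sum (fun v _ => hdeg v)
      _ = ∑ v ∈ A, (univ.filter (fun w => r v w)).card
          + ∑ v ∈ B, (univ.filter (fun w => r v w)).card := Finset.sum_union hAB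
      _ ≤ ∑ v ∈ A, (S.filter (fun w => r v w)).card
          + ∑ v ∈ B, ((S.filter (fun w => r v w)).card + (1 + C.card)) :=
          add_le_add (Finset.sum_le_sum hsplitA) (Finset.sum_le_sum hsplitB)
      _ = ∑ v ∈ S, (S.filter (fun w => r v w)).card + B.card * (1 + C.card) := by
          rw [Finset.sum_add_distrib, Finset.sum_union hAB]
          simp
          ring
  have harcs := arcs_inside r hr S
  rw [cS] at hsum harcs
  set a := A.card
  set b := B.card
  set c := C.card
  set e := ∑ v ∈ S, (S.filter (fun w => r v w)).card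
  -- a(a+b) ≤ e + b(1+c),  2e ≤ (a+b)(a+b-1)
  have h3 : (a + b) * (a + b - 1) + (a + b) = (a + b) * (a + b) := by
    rcases Nat.eq_zero_or_pos (a + b) with h | h
    · rw [h]
    · obtain ⟨k, hk⟩ : ∃ k, a + b = k + 1 := ⟨a + b - 1, by omega⟩
      rw [hk]; simp; ring
  nlinarith [hsum, harcs, h3]

theorem result :
    ∀ (V : Type) [Fintype V] [Nonempty V] (r : V → V → Prop), (∀ u v, r u v → ¬ r v u) →
      (∃ x : V, ∀ v, (N1 r x).ncard ≤ (N1 r v).ncard) ∧
      ∀ x : V, (∀ v, (N1 r x).ncard ≤ (N1 r v).ncard) →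
        ((N1 r x).ncard + (N2 r x).ncard) * ((N1 r x).ncard + 1)
            ≤ 2 * (N2 r x).ncard * (1 + (N3 r x).ncard)
              + ((N1 r x).ncard + (N2 r x).ncard) * (N2 r x).ncard ∧
        ((N1 r x).ncard ≤ (N2 r x).ncard ∨
          (N1 r x).ncard + 1 ≤ (N2 r x).ncard + (N3 r x).ncard) := by
  intro V _ _ r hr
  refine ⟨?_, ?_⟩
  · obtain ⟨x, -, hx⟩ := Finset.exists_min_image (univ : Finset V) (fun v => (N1 r v).ncard)
      Finset.univ_nonempty
    exact ⟨x, fun v => hx v (Finset.mem_univ v)⟩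
  · intro x hx
    have hk := key r hr x hx
    refine ⟨hk, ?_⟩
    by_contra hcon
    rw [not_or, not_le, not_le] at hcon
    obtain ⟨h1, h2⟩ := hcon
    clear hx
    generalize (N1 r x).ncard = a at *
    generalize (N2 r x).ncard = b at *
    generalize (N3 r x).ncard = c at *
    -- b < a, b + c < a + 1, so c ≤ a - b
    obtain ⟨s, hs⟩ : ∃ s, a = b + s + 1 := ⟨a - b - 1, by omega⟩
    have hc : c ≤ s + 1 := by omega
    subst hs
    have : 2 * b * (1 + c) ≤ 2 * b * (1 + (s + 1)) := by
      apply Nat.mul_le_mul_left; omega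
    nlinarith [hk, this]

end Vale.Agent.Results.P038.ThirdNbhd
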